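import Mathlib

/-!
Counting parity-constrained flows on a finite multigraph.

For windows `S : E → ℕ`, `T t h S x` counts `f : E → ℤ` with `|f e| ≤ S e`, `f e ≡ S e (mod 2)`
and net outflow `x`. Main results: the square identity `T_S(x)^2 = ∑_m T_{S-|m|}(x)` (sum over
circulations `m` with `|m| ≤ S`) and cut domination: if `x ≡ y (mod 2)` and `|y(U)| ≤ |x(U)|` for all
vertex sets `U`, then `T_S(x) ≤ T_S(y)`.
-/

set_option linter.unusedSectionVars false

noncomputable section

namespace Vale.Agent.P328

open Finset

variable {E V : Type*} [Fintype E] [DecidableEq E] [Fintype V] [DecidableEq V]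

/-- Net outflow at `v` of the edge function `f` on the multigraph with tails `t` and heads `h`. -/
def netOut (t h : E → V) (f : E → ℤ) (v : V) : ℤ :=
  ∑ e, ((if t e = v then f e else 0) - (if h e = v then f e else 0))

lemma netOut_add (t h : E → V) (f g : E → ℤ) :
    netOut t h (f + g) = netOut t h f + netOut t h g := by
  funext v
  simp only [netOut, Pi.add_apply, ← Finset.sum_add_distrib]
  refine Finset.sum_congr rfl fun e _ => ?_
  split_ifs <;> ring

lemma netOut_neg (t h : E → V) (f : E → ℤ) :
    netOut t h (-f) = -netOut t h f := by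
  funext v
  simp only [netOut, Pi.neg_apply, ← Finset.sum_neg_distrib]
  refine Finset.sum_congr rfl fun e _ => ?_
  split_ifs <;> ring

lemma netOut_sub (t h : E → V) (f g : E → ℤ) :
    netOut t h (f - g) = netOut t h f - netOut t h g := by
  rw [sub_eq_add_neg, netOut_add, netOut_neg, sub_eq_add_neg]

lemma netOut_two_mul (t h : E → V) (f g : E → ℤ) (hfg : ∀ e, f e = 2 * g e) (v : V) :
    netOut t h f v = 2 * netOut t h g v := by
  simp only [netOut, Finset.mul_sum]
  refine Finset.sum_congr rfl fun e _ => ?_
  rw [hfg e]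
  split_ifs <;> ring

lemma netOut_zero (t h : E → V) : netOut t h (0 : E → ℤ) = 0 := by
  funext v
  simp [netOut]

/-- Edge functions `f` with `|f e| ≤ S e` for all `e`. -/
def win (S : E → ℕ) : Finset (E → ℤ) :=
  Fintype.piFinset fun e => Finset.Icc (-(S e : ℤ)) (S e)

lemma mem_win {S : E → ℕ} {f : E → ℤ} :
    f ∈ win S ↔ ∀ e, -(S e : ℤ) ≤ f e ∧ f e ≤ S e := by
  simp [win, Fintype.mem_piFinset]

/-- Edge functions with `|f e| ≤ S e`, `f e ≡ S e (mod 2)` and net outflow `x`. -/
def flows (t h : E → V) (S : E → ℕ) (x : V → ℤ) : Finset (E → ℤ) :=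
  (win S).filter fun f => (∀ e, (2 : ℤ) ∣ f e - S e) ∧ netOut t h f = x

lemma mem_flows {t h : E → V} {S : E → ℕ} {x : V → ℤ} {f : E → ℤ} :
    f ∈ flows t h S x ↔
      (∀ e, -(S e : ℤ) ≤ f e ∧ f e ≤ S e) ∧ (∀ e, (2 : ℤ) ∣ f e - S e) ∧ netOut t h f = x := by
  simp [flows, mem_win]

/-- The number of flows with windows `S` and net outflow `x`. -/
def flowCount (t h : E → V) (S : E → ℕ) (x : V → ℤ) : ℕ := (flows t h S x).card

lemma flowCount_neg (t h : E → V) (S : E → ℕ) (x : V → ℤ) :
    flowCount t h S (-x) = flowCount t h S x := by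
  unfold flowCount
  refine Finset.card_nbij' (fun f => -f) (fun f => -f) ?_ ?_ ?_ ?_
  · intro f hf
    have hf' := mem_flows.1 (Finset.mem_coe.1 hf)
    refine Finset.mem_coe.2 (mem_flows.2 ⟨fun e => ?_, fun e => ?_, ?_⟩)
    · have := hf'.1 e
      simp only [Pi.neg_apply]
      omega
    · have := hf'.2.1 e
      simp only [Pi.neg_apply]
      omega
    · rw [netOut_neg, hf'.2.2, neg_neg]
  · intro f hf
    have hf' := mem_flows.1 (Finset.mem_coe.1 hf)
    refine Finset.mem_coe.2 (mem_flows.2 ⟨fun e => ?_, fun e => ?_, ?_⟩)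
    · have := hf'.1 e
      simp only [Pi.neg_apply]
      omega
    · have := hf'.2.1 e
      simp only [Pi.neg_apply]
      omega
    · rw [netOut_neg, hf'.2.2]
  · intro f _
    simp
  · intro f _
    simp

/-- Circulations inside the window `S`. -/
def circ (t h : E → V) (S : E → ℕ) : Finset (E → ℤ) :=
  (win S).filter fun m => netOut t h m = 0

lemma mem_circ {t h : E → V} {S : E → ℕ} {m : E → ℤ} :
    m ∈ circ t h S ↔ (∀ e, -(S e : ℤ) ≤ m e ∧ m e ≤ S e) ∧ netOut t h m = 0 := by
  simp [circ, mem_win]

/-- The window `S - |m|`. -/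
def shrink (S : E → ℕ) (m : E → ℤ) : E → ℕ := fun e => S e - (m e).natAbs

/-- Key identity: `T_S(x) T_S(-x)` is the sum of `T_{S-|m|}(x)` over circulations `m` in the window. -/
theorem flowCount_mul (t h : E → V) (S : E → ℕ) (x : V → ℤ) :
    flowCount t h S x * flowCount t h S (-x) =
      ∑ m ∈ circ t h S, flowCount t h (shrink S m) x := by
  unfold flowCount
  rw [← Finset.card_product, ← Finset.card_sigma]
  refine Finset.card_nbij'
    (fun p => ⟨fun e => (p.1 e + p.2 e) / 2, fun e => (p.1 e - p.2 e) / 2⟩)
    (fun q => (q.1 + q.2, q.1 - q.2)) ?_ ?_ ?_ ?_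
  · rintro ⟨f, g⟩ hp
    have hp' : f ∈ flows t h S x ∧ g ∈ flows t h S (-x) := Finset.mem_product.1 (Finset.mem_coe.1 hp)
    have hf := mem_flows.1 hp'.1
    have hg := mem_flows.1 hp'.2
    have hm : ∀ e, f e + g e = 2 * ((f e + g e) / 2) := fun e => by
      have h1 := hf.2.1 e
      have h2 := hg.2.1 e
      omega
    have hd : ∀ e, f e - g e = 2 * ((f e - g e) / 2) := fun e => by
      have h1 := hf.2.1 e
      have h2 := hg.2.1 e
      omega
    refine Finset.mem_coe.2 (Finset.mem_sigma.2 ⟨mem_circ.2 ⟨fun e => ?_, ?_⟩, mem_flows.2 ⟨fun e => ?_, fun e => ?_, ?_⟩⟩)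
    · have h1 := hf.1 e
      have h2 := hg.1 e
      have h3 := hm e
      constructor <;> simp only <;> omega
    · funext v
      have h1 := netOut_two_mul t h (f + g) (fun e => (f e + g e) / 2) (fun e => hm e) v
      rw [netOut_add, hf.2.2, hg.2.2] at h1
      simp only [Pi.add_apply, Pi.neg_apply] at h1
      simp only [Pi.zero_apply]
      omega
    · have h1 := hf.1 e
      have h2 := hg.1 e
      have h3 := hm e
      have h4 := hd e
      simp only [shrink]
      omega
    · have h1 := hf.2.1 e
      have h2 := hg.1 e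
      have h5 := hf.1 e
      have h3 := hm e
      have h4 := hd e
      simp only [shrink]
      omega
    · change netOut t h (fun e => (f e - g e) / 2) = x
      funext v
      have h1 := netOut_two_mul t h (f - g) (fun e => (f e - g e) / 2) (fun e => hd e) v
      rw [netOut_sub, hf.2.2, hg.2.2] at h1
      simp only [Pi.sub_apply, Pi.neg_apply] at h1
      omega
  · rintro ⟨m, g⟩ hq
    have hq' : m ∈ circ t h S ∧ g ∈ flows t h (shrink S m) x := Finset.mem_sigma.1 (Finset.mem_coe.1 hq)
    have hm := mem_circ.1 hq'.1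
    have hg := mem_flows.1 hq'.2
    refine Finset.mem_coe.2 (Finset.mem_product.2 ⟨mem_flows.2 ⟨fun e => ?_, fun e => ?_, ?_⟩, mem_flows.2 ⟨fun e => ?_, fun e => ?_, ?_⟩⟩)
    · have h1 := hm.1 e
      have h2 := hg.1 e
      simp only [shrink] at h2
      simp only [Pi.add_apply]
      omega
    · have h1 := hm.1 e
      have h2 := hg.2.1 e
      simp only [shrink] at h2
      simp only [Pi.add_apply]
      omega
    · rw [netOut_add, hm.2, hg.2.2, zero_add]
    · have h1 := hm.1 e
      have h2 := hg.1 e
      simp only [shrink] at h2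
      simp only [Pi.sub_apply]
      omega
    · have h1 := hm.1 e
      have h2 := hg.2.1 e
      simp only [shrink] at h2
      simp only [Pi.sub_apply]
      omega
    · rw [netOut_sub, hm.2, hg.2.2, zero_sub]
  · rintro ⟨f, g⟩ hp
    have hp' : f ∈ flows t h S x ∧ g ∈ flows t h S (-x) := Finset.mem_product.1 (Finset.mem_coe.1 hp)
    have hf := mem_flows.1 hp'.1
    have hg := mem_flows.1 hp'.2
    simp only [Prod.mk.injEq]
    constructor <;> funext e <;>
    · have h1 := hf.2.1 e
      have h2 := hg.2.1 e
      simp only [Pi.add_apply, Pi.sub_apply]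
      omega
  · rintro ⟨m, g⟩ hq
    have hq' : m ∈ circ t h S ∧ g ∈ flows t h (shrink S m) x := Finset.mem_sigma.1 (Finset.mem_coe.1 hq)
    have hm := mem_circ.1 hq'.1
    have hg := mem_flows.1 hq'.2
    simp only [Pi.add_apply, Pi.sub_apply]
    have h1 : (fun e => (m e + g e + (m e - g e)) / 2) = m := by
      funext e
      omega
    have h2 : (fun e => (m e + g e - (m e - g e)) / 2) = g := by
      funext e
      omega
    rw [h1, h2]

/-- The square identity. -/
theorem flowCount_sq (t h : E → V) (S : E → ℕ) (x : V → ℤ) :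
    flowCount t h S x * flowCount t h S x =
      ∑ m ∈ circ t h S, flowCount t h (shrink S m) x := by
  rw [← flowCount_mul, flowCount_neg]

/-! ### Support: augmenting paths -/

/-- Simple paths from `v` to `w`, all later vertices taken (without repetition) from `A`. -/
inductive SimpleReach (R : V → V → Prop) : Finset V → V → V → Prop
  | nil (A : Finset V) (v : V) : SimpleReach R A v v
  | cons {A : Finset V} {v z w : V} : R v z → z ∈ A → SimpleReach R (A.erase z) z w →
      SimpleReach R A v w

lemma SimpleReach.mono {R R' : V → V → Prop} {v : V}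
    (hR : ∀ a b, a ≠ v → b ≠ v → R a b → R' a b) {A : Finset V} {a w : V}
    (hs : SimpleReach R A a w) (ha : a ≠ v) (hv : v ∉ A) : SimpleReach R' A a w := by
  induction hs with
  | nil A a => exact SimpleReach.nil A a
  | @cons A a z w h1 h2 _ ih =>
    have hz : z ≠ v := fun hz => hv (hz ▸ h2)
    refine SimpleReach.cons (hR a z ha hz h1) h2 (ih hz ?_)
    exact fun h => hv (Finset.mem_of_mem_erase h)

lemma SimpleReach.step {R : V → V → Prop} {A : Finset V} {a u z : V}
    (hs : SimpleReach R A a u) (ha : a ∉ A) (hz : z ∈ A ∨ z = a) (huz : R u z) :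
    SimpleReach R A a z := by
  induction hs with
  | nil A a =>
    rcases hz with hz | hz
    · exact SimpleReach.cons huz hz (SimpleReach.nil _ _)
    · rw [hz]
      exact SimpleReach.nil _ _
  | @cons A a b w h1 h2 _ ih =>
    rcases hz with hz | hz
    · by_cases hzb : z = b
      · subst hzb
        exact SimpleReach.cons h1 h2 (SimpleReach.nil _ _)
      · exact SimpleReach.cons h1 h2
          (ih (by simp) (Or.inl (Finset.mem_erase.2 ⟨hzb, hz⟩)) huz)
    · rw [hz]
      exact SimpleReach.nil _ _

/-- Residual arcs for `f` in the window `S`: charge `2` may be moved from `u` to `w` along an edge. -/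
def resid (t h : E → V) (S : E → ℕ) (f : E → ℤ) (u w : V) : Prop :=
  ∃ e, (t e = u ∧ h e = w ∧ -(S e : ℤ) < f e) ∨ (h e = u ∧ t e = w ∧ f e < S e)

lemma netOut_update (t h : E → V) (f : E → ℤ) (e : E) (c : ℤ) (a : V) :
    netOut t h (Function.update f e (f e + c)) a =
      netOut t h f a + c * ((if t e = a then 1 else 0) - (if h e = a then 1 else 0)) := by
  have h1 : Function.update f e (f e + c) = f + Function.update (0 : E → ℤ) e c := by
    funext e'
    by_cases he : e' = e
    · subst he
      simp
    · simp [Function.update_of_ne he]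
  rw [h1, netOut_add]
  simp only [Pi.add_apply, add_right_inj]
  unfold netOut
  rw [Finset.sum_eq_single e]
  · simp only [Function.update_self]
    split_ifs <;> ring
  · intro b _ hb
    simp [Function.update_of_ne hb]
  · intro he
    exact absurd (Finset.mem_univ e) he

/-- Moving charge `2` from `v` to `w` along a simple residual path. -/
lemma exists_augment (t h : E → V) (S : E → ℕ) {A : Finset V} {v w : V} (f : E → ℤ)
    (hs : SimpleReach (resid t h S f) A v w) (hv : v ∉ A)
    (hf : ∀ e, -(S e : ℤ) ≤ f e ∧ f e ≤ S e) (hp : ∀ e, (2 : ℤ) ∣ f e - S e) :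
    ∃ f' : E → ℤ, (∀ e, -(S e : ℤ) ≤ f' e ∧ f' e ≤ S e) ∧ (∀ e, (2 : ℤ) ∣ f' e - S e) ∧
      ∀ a, netOut t h f' a = netOut t h f a - 2 * (if v = a then 1 else 0) +
        2 * (if w = a then 1 else 0) := by
  generalize hn : A.card = n
  induction n generalizing A v f with
  | zero =>
    have hA : A = ∅ := Finset.card_eq_zero.1 hn
    subst hA
    cases hs with
    | nil => exact ⟨f, hf, hp, fun a => by ring⟩
    | cons _ h2 _ => simp at h2
  | succ n ih =>
    cases hs with
    | nil => exact ⟨f, hf, hp, fun a => by ring⟩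
    | @cons _ _ z _ h1 h2 h3 =>
      have hzv : z ≠ v := fun hz => hv (hz ▸ h2)
      have hcard : (A.erase z).card = n := by
        rw [Finset.card_erase_of_mem h2, hn]
        rfl
      have hzz : z ∉ A.erase z := by simp
      rcases h1 with ⟨e, ⟨he1, he2, he3⟩ | ⟨he1, he2, he3⟩⟩
      · -- lower `f e` by `2`
        set f1 := Function.update f e (f e + (-2)) with hf1
        have hf1e : f1 e = f e - 2 := by simp [hf1]; ring
        have hf1o : ∀ e', e' ≠ e → f1 e' = f e' := fun e' he' => by
          simp [hf1, Function.update_of_ne he']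
        have hb : ∀ e', -(S e' : ℤ) ≤ f1 e' ∧ f1 e' ≤ S e' := fun e' => by
          by_cases he' : e' = e
          · subst he'
            rw [hf1e]
            have := hf e'
            have := hp e'
            omega
          · rw [hf1o e' he']
            exact hf e'
        have hpar : ∀ e', (2 : ℤ) ∣ f1 e' - S e' := fun e' => by
          by_cases he' : e' = e
          · subst he'
            rw [hf1e]
            have := hp e'
            omega
          · rw [hf1o e' he']
            exact hp e'
        have hs1 : SimpleReach (resid t h S f1) (A.erase z) z w := by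
          refine SimpleReach.mono (v := v) ?_ h3 hzv (fun hh => hv (Finset.mem_of_mem_erase hh))
          rintro a b ha hb' ⟨e', ⟨h4, h5, h6⟩ | ⟨h4, h5, h6⟩⟩
          · refine ⟨e', Or.inl ⟨h4, h5, ?_⟩⟩
            have hne : e' ≠ e := by
              rintro rfl
              exact ha (h4.symm.trans he1)
            rw [hf1o e' hne]
            exact h6
          · refine ⟨e', Or.inr ⟨h4, h5, ?_⟩⟩
            have hne : e' ≠ e := by
              rintro rfl
              exact hb' (h5.symm.trans he1)
            rw [hf1o e' hne]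
            exact h6
        obtain ⟨f', h7, h8, h9⟩ := ih f1 hs1 hzz hb hpar hcard
        refine ⟨f', h7, h8, fun a => ?_⟩
        rw [h9 a, hf1, netOut_update, he1, he2]
        ring
      · -- raise `f e` by `2`
        set f1 := Function.update f e (f e + 2) with hf1
        have hf1e : f1 e = f e + 2 := by simp [hf1]
        have hf1o : ∀ e', e' ≠ e → f1 e' = f e' := fun e' he' => by
          simp [hf1, Function.update_of_ne he']
        have hb : ∀ e', -(S e' : ℤ) ≤ f1 e' ∧ f1 e' ≤ S e' := fun e' => by
          by_cases he' : e' = e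
          · subst he'
            rw [hf1e]
            have := hf e'
            have := hp e'
            omega
          · rw [hf1o e' he']
            exact hf e'
        have hpar : ∀ e', (2 : ℤ) ∣ f1 e' - S e' := fun e' => by
          by_cases he' : e' = e
          · subst he'
            rw [hf1e]
            have := hp e'
            omega
          · rw [hf1o e' he']
            exact hp e'
        have hs1 : SimpleReach (resid t h S f1) (A.erase z) z w := by
          refine SimpleReach.mono (v := v) ?_ h3 hzv (fun hh => hv (Finset.mem_of_mem_erase hh))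
          rintro a b ha hb' ⟨e', ⟨h4, h5, h6⟩ | ⟨h4, h5, h6⟩⟩
          · refine ⟨e', Or.inl ⟨h4, h5, ?_⟩⟩
            have hne : e' ≠ e := by
              rintro rfl
              exact hb' (h5.symm.trans he1)
            rw [hf1o e' hne]
            exact h6
          · refine ⟨e', Or.inr ⟨h4, h5, ?_⟩⟩
            have hne : e' ≠ e := by
              rintro rfl
              exact ha (h4.symm.trans he1)
            rw [hf1o e' hne]
            exact h6
        obtain ⟨f', h7, h8, h9⟩ := ih f1 hs1 hzz hb hpar hcard
        refine ⟨f', h7, h8, fun a => ?_⟩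
        rw [h9 a, hf1, netOut_update, he1, he2]
        ring

/-- Cut domination of the charge `x` over the charge `y`. -/
def CutDom (x y : V → ℤ) : Prop :=
  (∀ v, (2 : ℤ) ∣ x v - y v) ∧ ∀ U : Finset V, |∑ v ∈ U, y v| ≤ |∑ v ∈ U, x v|

lemma sum_netOut_eq (t h : E → V) (f : E → ℤ) (U : Finset V) :
    ∑ v ∈ U, netOut t h f v =
      ∑ e, f e * ((if t e ∈ U then 1 else 0) - (if h e ∈ U then 1 else 0)) := by
  unfold netOut
  rw [Finset.sum_comm]
  refine Finset.sum_congr rfl fun e _ => ?_
  rw [Finset.sum_sub_distrib]
  simp only [Finset.sum_ite_eq, mul_sub]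
  split_ifs <;> simp

lemma netOut_two_dvd (t h : E → V) (g : E → ℤ) (hg : ∀ e, (2 : ℤ) ∣ g e) (v : V) :
    (2 : ℤ) ∣ netOut t h g v := by
  refine Finset.dvd_sum fun e _ => ?_
  split_ifs <;> simp [hg e, dvd_sub]

/-- Support of the flow count: cut domination transfers existence of flows. -/
theorem exists_flow_of_cutDom (t h : E → V) (S : E → ℕ) {x y : V → ℤ} (hxy : CutDom x y)
    (hx : (flows t h S x).Nonempty) : (flows t h S y).Nonempty := by
  obtain ⟨f0, hf0⟩ := hx
  have hf0' := mem_flows.1 hf0
  -- the set of all edge functions in the window with the right parity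
  set F : Finset (E → ℤ) := (win S).filter fun f => ∀ e, (2 : ℤ) ∣ f e - S e with hF
  have hf0F : f0 ∈ F := Finset.mem_filter.2 ⟨mem_win.2 hf0'.1, hf0'.2.1⟩
  let Φ : (E → ℤ) → ℤ := fun f => ∑ v, |netOut t h f v - y v|
  obtain ⟨f, hfF, hmin⟩ := Finset.exists_min_image F Φ ⟨f0, hf0F⟩
  have hfw : ∀ e, -(S e : ℤ) ≤ f e ∧ f e ≤ S e := mem_win.1 (Finset.mem_filter.1 hfF).1
  have hfp : ∀ e, (2 : ℤ) ∣ f e - S e := (Finset.mem_filter.1 hfF).2
  -- parity of charges
  have hpar : ∀ v, (2 : ℤ) ∣ netOut t h f v - y v := fun v => by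
    have h1 : (2 : ℤ) ∣ netOut t h (f - f0) v := netOut_two_dvd t h _ (fun e => by
      have := hfp e
      have := hf0'.2.1 e
      simp only [Pi.sub_apply]
      omega) v
    rw [netOut_sub, hf0'.2.2] at h1
    have h2 := hxy.1 v
    simp only [Pi.sub_apply] at h1
    omega
  -- totals vanish
  have htot : ∀ g : E → ℤ, ∑ v, netOut t h g v = 0 := fun g => by
    rw [sum_netOut_eq]
    refine Finset.sum_eq_zero fun e _ => ?_
    simp
  have hty : ∑ v, y v = 0 := by
    have h1 := hxy.2 Finset.univ
    have h2 : ∑ v, x v = 0 := by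
      rw [← hf0'.2.2]
      exact htot f0
    rw [h2, abs_zero] at h1
    exact abs_eq_zero.1 (le_antisymm h1 (abs_nonneg _))
  by_contra hne
  have hfne : netOut t h f ≠ y := fun hfy =>
    hne ⟨f, mem_flows.2 ⟨hfw, hfp, hfy⟩⟩
  -- a vertex with an excess
  obtain ⟨v, hv⟩ : ∃ v, y v < netOut t h f v := by
    by_contra hall
    push_neg at hall
    apply hfne
    have h1 : ∑ v, (y v - netOut t h f v) = 0 := by
      rw [Finset.sum_sub_distrib, hty, htot, sub_zero]
    have h2 := (Finset.sum_eq_zero_iff_of_nonneg (fun i _ => sub_nonneg.2 (hall i))).1 h1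
    funext a
    have := h2 a (Finset.mem_univ a)
    omega
  have hv2 : y v + 2 ≤ netOut t h f v := by
    have := hpar v
    omega
  -- reachable set
  classical
  let U : Finset V := Finset.univ.filter fun w =>
    SimpleReach (resid t h S f) (Finset.univ.erase v) v w
  have hvU : v ∈ U := Finset.mem_filter.2 ⟨Finset.mem_univ _, SimpleReach.nil _ _⟩
  have hclosed : ∀ a b, a ∈ U → resid t h S f a b → b ∈ U := fun a b ha hab => by
    refine Finset.mem_filter.2 ⟨Finset.mem_univ _, ?_⟩
    refine SimpleReach.step (Finset.mem_filter.1 ha).2 (by simp) ?_ hab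
    by_cases hb : b = v
    · exact Or.inr hb
    · exact Or.inl (by simp [hb])
  by_cases hdef : ∃ w ∈ U, netOut t h f w < y w
  · -- augment
    obtain ⟨w, hwU, hw⟩ := hdef
    have hw2 : netOut t h f w + 2 ≤ y w := by
      have := hpar w
      omega
    have hwv : w ≠ v := by
      rintro rfl
      omega
    obtain ⟨f', h1, h2, h3⟩ := exists_augment t h S f (Finset.mem_filter.1 hwU).2 (by simp) hfw hfp
    have hlt : Φ f' < Φ f := by
      refine Finset.sum_lt_sum (fun a _ => ?_) ⟨v, Finset.mem_univ v, ?_⟩
      · rw [h3 a]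
        by_cases hav : v = a
        · subst hav
          have hne' : ¬ w = v := hwv
          simp only [if_true, if_neg hne']
          rw [abs_of_nonneg (by omega), abs_of_nonneg (by omega)]
          omega
        · by_cases haw : w = a
          · subst haw
            simp only [if_neg hav, if_true]
            rw [abs_of_nonpos (by omega), abs_of_nonpos (by omega)]
            omega
          · simp [hav, haw]
      · rw [h3 v]
        have hne' : ¬ w = v := hwv
        simp only [if_true, if_neg hne']
        rw [abs_of_nonneg (by omega), abs_of_nonneg (by omega)]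
        omega
    have hf'F : f' ∈ F := Finset.mem_filter.2 ⟨mem_win.2 h1, h2⟩
    exact absurd (hmin f' hf'F) (not_le.2 hlt)
  · -- saturated cut
    push_neg at hdef
    have hexc : ∑ w ∈ U, y w < ∑ w ∈ U, netOut t h f w :=
      Finset.sum_lt_sum hdef ⟨v, hvU, hv⟩
    have hsat : ∀ g : E → ℤ, (∀ e, -(S e : ℤ) ≤ g e ∧ g e ≤ S e) →
        ∑ w ∈ U, netOut t h f w ≤ ∑ w ∈ U, netOut t h g w := fun g hg => by
      rw [sum_netOut_eq, sum_netOut_eq]
      refine Finset.sum_le_sum fun e _ => ?_
      by_cases ht : t e ∈ U <;> by_cases hh : h e ∈ U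
      · simp [ht, hh]
      · have hsat1 : ¬ -(S e : ℤ) < f e := fun hlt =>
          hh (hclosed _ _ ht ⟨e, Or.inl ⟨rfl, rfl, hlt⟩⟩)
        have := hg e
        have := hfw e
        simp only [ht, hh, if_true, if_false]
        omega
      · have hsat1 : ¬ f e < (S e : ℤ) := fun hlt =>
          ht (hclosed _ _ hh ⟨e, Or.inr ⟨rfl, rfl, hlt⟩⟩)
        have := hg e
        have := hfw e
        simp only [ht, hh, if_true, if_false]
        omega
      · simp [ht, hh]
    have h1 := hsat f0 hf0'.1
    have h2 := hsat (-f0) (fun e => by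
      have := hf0'.1 e
      simp only [Pi.neg_apply]
      omega)
    rw [hf0'.2.2] at h1
    rw [netOut_neg, hf0'.2.2] at h2
    simp only [Pi.neg_apply, Finset.sum_neg_distrib] at h2
    have h3 := hxy.2 U
    have h4 := neg_abs_le (∑ w ∈ U, y w)
    have h5 : -|∑ w ∈ U, x w| ≥ ∑ w ∈ U, netOut t h f w := by
      rcases abs_cases (∑ w ∈ U, x w) with ⟨h6, _⟩ | ⟨h6, _⟩ <;> rw [h6] <;> linarith
    linarith

/-- The main theorem on flows: cut domination of charges implies domination of flow counts. -/
theorem flowCount_le_of_cutDom (t h : E → V) {x y : V → ℤ} (hxy : CutDom x y) (S : E → ℕ) :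
    flowCount t h S x ≤ flowCount t h S y := by
  generalize hn : ∑ e, S e = n
  induction n using Nat.strong_induction_on generalizing S with
  | _ n ih =>
    have hsupp : flowCount t h S y = 0 → flowCount t h S x = 0 := fun h0 => by
      by_contra hne
      have h1 : (flows t h S x).Nonempty := Finset.card_pos.1 (Nat.pos_of_ne_zero hne)
      have h2 := exists_flow_of_cutDom t h S hxy h1
      unfold flowCount at h0
      exact (Finset.card_pos.2 h2).ne' h0
    have h0 : (0 : E → ℤ) ∈ circ t h S := mem_circ.2 ⟨fun e => by simp, netOut_zero t h⟩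
    have hsh0 : shrink S (0 : E → ℤ) = S := by
      funext e
      simp [shrink]
    have hx := flowCount_sq t h S x
    have hy := flowCount_sq t h S y
    rw [← Finset.add_sum_erase _ _ h0, hsh0] at hx hy
    have hsum : ∑ m ∈ (circ t h S).erase 0, flowCount t h (shrink S m) x ≤
        ∑ m ∈ (circ t h S).erase 0, flowCount t h (shrink S m) y := by
      refine Finset.sum_le_sum fun m hm => ?_
      obtain ⟨hm0, hmc⟩ := Finset.mem_erase.1 hm
      have hmc' := mem_circ.1 hmc
      refine ih (∑ e, shrink S m e) ?_ (shrink S m) rfl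
      rw [← hn]
      obtain ⟨e0, he0⟩ : ∃ e, m e ≠ 0 := by
        by_contra hall
        push_neg at hall
        exact hm0 (funext hall)
      refine Finset.sum_lt_sum (fun e _ => ?_) ⟨e0, Finset.mem_univ _, ?_⟩
      · simp [shrink]
      · have := hmc'.1 e0
        simp only [shrink]
        omega
    set a := flowCount t h S x
    set b := flowCount t h S y
    by_contra hlt
    push_neg at hlt
    rcases Nat.eq_zero_or_pos b with hb | hb
    · have := hsupp hb
      omega
    · nlinarith

end Vale.Agent.P328

end
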