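import Vale.Agent.P328.Flows

/-!
Contingency tables: products of two table counts as sums of flow counts over `K_{m,n}`,
and the resulting inequalities between table counts.
-/

set_option linter.unusedSectionVars false

noncomputable section

namespace Vale.Agent.P328

open Finset

variable {ι κ : Type*} [Fintype ι] [DecidableEq ι] [Fintype κ] [DecidableEq κ]

/-- The contingency tables with row sums `r` and column sums `c`. -/
def tableSet (r : ι → ℕ) (c : κ → ℕ) : Set (ι → κ → ℕ) :=
  {X | (∀ i, ∑ j, X i j = r i) ∧ ∀ j, ∑ i, X i j = c j}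

/-- The number of contingency tables with row sums `r` and column sums `c`. -/
def tableCount (r : ι → ℕ) (c : κ → ℕ) : ℕ := (tableSet r c).ncard

/-- The contingency tables as a finite set. -/
def tablesF (r : ι → ℕ) (c : κ → ℕ) : Finset (ι → κ → ℕ) :=
  (Fintype.piFinset fun i => Fintype.piFinset fun _ : κ => Finset.range (r i + 1)).filter
    fun X => (∀ i, ∑ j, X i j = r i) ∧ ∀ j, ∑ i, X i j = c j

lemma mem_tablesF {r : ι → ℕ} {c : κ → ℕ} {X : ι → κ → ℕ} :
    X ∈ tablesF r c ↔ (∀ i, ∑ j, X i j = r i) ∧ ∀ j, ∑ i, X i j = c j := by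
  simp only [tablesF, Finset.mem_filter, Fintype.mem_piFinset, Finset.mem_range, and_iff_right_iff_imp]
  rintro ⟨h1, _⟩ i j
  have := Finset.single_le_sum (f := fun j => X i j) (fun _ _ => Nat.zero_le _) (Finset.mem_univ j)
  have h2 := h1 i
  omega

lemma tableCount_eq (r : ι → ℕ) (c : κ → ℕ) : tableCount r c = (tablesF r c).card := by
  unfold tableCount
  have : tableSet r c = ↑(tablesF r c) := by
    ext X
    simp [tableSet, mem_tablesF]
  rw [this, Set.ncard_coe_finset]

/-- Tails in the complete bipartite graph on rows and columns. -/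
def ktail : ι × κ → ι ⊕ κ := fun e => Sum.inl e.1

/-- Heads in the complete bipartite graph on rows and columns. -/
def khead : ι × κ → ι ⊕ κ := fun e => Sum.inr e.2

lemma netOut_inl (f : ι × κ → ℤ) (i : ι) :
    netOut ktail khead f (Sum.inl i) = ∑ j, f (i, j) := by
  unfold netOut
  rw [Fintype.sum_prod_type, Finset.sum_eq_single i]
  · simp [ktail, khead]
  · intro b _ hb
    simp [ktail, khead, hb]
  · simp

lemma netOut_inr (f : ι × κ → ℤ) (j : κ) :
    netOut ktail khead f (Sum.inr j) = -∑ i, f (i, j) := by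
  unfold netOut
  rw [Fintype.sum_prod_type_right, Finset.sum_eq_single j]
  · simp [ktail, khead]
  · intro b _ hb
    simp [ktail, khead, hb]
  · simp

/-- The charge on rows and columns attached to a pair of margins. -/
def charge (r r' : ι → ℕ) (c c' : κ → ℕ) : ι ⊕ κ → ℤ :=
  Sum.elim (fun i => (r i : ℤ) - r' i) (fun j => -((c j : ℤ) - c' j))

/-- Uncurrying a table to an edge function. -/
def unc (S : ι → κ → ℕ) : ι × κ → ℕ := fun e => S e.1 e.2

/-- A product of two table counts is the sum over all `S = X + Y` of flow counts. -/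
theorem tableCount_mul (r r' : ι → ℕ) (c c' : κ → ℕ) :
    tableCount r c * tableCount r' c' =
      ∑ S ∈ tablesF (r + r') (c + c'), flowCount ktail khead (unc S) (charge r r' c c') := by
  rw [tableCount_eq, tableCount_eq]
  unfold flowCount
  rw [← Finset.card_product, ← Finset.card_sigma]
  refine Finset.card_nbij'
    (fun p => ⟨fun i j => p.1 i j + p.2 i j, fun e => (p.1 e.1 e.2 : ℤ) - p.2 e.1 e.2⟩)
    (fun q => (fun i j => (((q.1 i j : ℤ) + q.2 (i, j)) / 2).toNat,
               fun i j => (((q.1 i j : ℤ) - q.2 (i, j)) / 2).toNat)) ?_ ?_ ?_ ?_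
  · rintro ⟨X, Y⟩ hp
    have hp' : X ∈ tablesF r c ∧ Y ∈ tablesF r' c' := Finset.mem_product.1 (Finset.mem_coe.1 hp)
    have hX := mem_tablesF.1 hp'.1
    have hY := mem_tablesF.1 hp'.2
    refine Finset.mem_coe.2 (Finset.mem_sigma.2 ⟨mem_tablesF.2 ⟨fun i => ?_, fun j => ?_⟩,
      mem_flows.2 ⟨fun e => ?_, fun e => ?_, ?_⟩⟩)
    · simp only [Finset.sum_add_distrib, Pi.add_apply, hX.1, hY.1]
    · simp only [Finset.sum_add_distrib, Pi.add_apply, hX.2, hY.2]
    · simp only [unc]
      push_cast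
      omega
    · simp only [unc]
      push_cast
      omega
    · funext v
      rcases v with i | j
      · rw [netOut_inl]
        simp only [charge, Sum.elim_inl, Finset.sum_sub_distrib]
        rw [← hX.1 i, ← hY.1 i]
        push_cast
        rfl
      · rw [netOut_inr]
        simp only [charge, Sum.elim_inr, Finset.sum_sub_distrib]
        rw [← hX.2 j, ← hY.2 j]
        push_cast
        rfl
  · rintro ⟨S, f⟩ hq
    have hq' : S ∈ tablesF (r + r') (c + c') ∧
        f ∈ flows ktail khead (unc S) (charge r r' c c') :=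
      Finset.mem_sigma.1 (Finset.mem_coe.1 hq)
    have hS := mem_tablesF.1 hq'.1
    have hf := mem_flows.1 hq'.2
    have hb : ∀ i j, -(S i j : ℤ) ≤ f (i, j) ∧ f (i, j) ≤ S i j := fun i j => hf.1 (i, j)
    have hpar : ∀ i j, (2 : ℤ) ∣ f (i, j) - S i j := fun i j => hf.2.1 (i, j)
    have hX : ∀ i j, 2 * ((((S i j : ℤ) + f (i, j)) / 2).toNat : ℤ) = (S i j : ℤ) + f (i, j) :=
      fun i j => by
        have h1 := hb i j
        have h2 := hpar i j
        omega
    have hY : ∀ i j, 2 * ((((S i j : ℤ) - f (i, j)) / 2).toNat : ℤ) = (S i j : ℤ) - f (i, j) :=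
      fun i j => by
        have h1 := hb i j
        have h2 := hpar i j
        omega
    have hrow : ∀ i, ∑ j, f (i, j) = (r i : ℤ) - r' i := fun i => by
      have := congrFun hf.2.2 (Sum.inl i)
      rw [netOut_inl] at this
      simpa [charge] using this
    have hcol : ∀ j, ∑ i, f (i, j) = (c j : ℤ) - c' j := fun j => by
      have := congrFun hf.2.2 (Sum.inr j)
      rw [netOut_inr] at this
      have h2 : -∑ i, f (i, j) = -((c j : ℤ) - c' j) := by simpa [charge] using this
      omega
    have hSr : ∀ i, ∑ j, (S i j : ℤ) = (r i : ℤ) + r' i := fun i => by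
      have := hS.1 i
      simp only [Pi.add_apply] at this
      exact_mod_cast this
    have hSc : ∀ j, ∑ i, (S i j : ℤ) = (c j : ℤ) + c' j := fun j => by
      have := hS.2 j
      simp only [Pi.add_apply] at this
      exact_mod_cast this
    refine Finset.mem_coe.2 (Finset.mem_product.2 ⟨mem_tablesF.2 ⟨fun i => ?_, fun j => ?_⟩,
      mem_tablesF.2 ⟨fun i => ?_, fun j => ?_⟩⟩)
    · have h1 : 2 * ∑ j, ((((S i j : ℤ) + f (i, j)) / 2).toNat : ℤ) = 2 * (r i : ℤ) := by
        rw [Finset.mul_sum, Finset.sum_congr rfl (fun j _ => hX i j), Finset.sum_add_distrib,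
          hSr, hrow]
        ring
      have h2 : ∑ j, ((((S i j : ℤ) + f (i, j)) / 2).toNat : ℤ) = (r i : ℤ) := by omega
      exact_mod_cast h2
    · have h1 : 2 * ∑ i, ((((S i j : ℤ) + f (i, j)) / 2).toNat : ℤ) = 2 * (c j : ℤ) := by
        rw [Finset.mul_sum, Finset.sum_congr rfl (fun i _ => hX i j), Finset.sum_add_distrib,
          hSc, hcol]
        ring
      have h2 : ∑ i, ((((S i j : ℤ) + f (i, j)) / 2).toNat : ℤ) = (c j : ℤ) := by omega
      exact_mod_cast h2
    · have h1 : 2 * ∑ j, ((((S i j : ℤ) - f (i, j)) / 2).toNat : ℤ) = 2 * (r' i : ℤ) := by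
        rw [Finset.mul_sum, Finset.sum_congr rfl (fun j _ => hY i j), Finset.sum_sub_distrib,
          hSr, hrow]
        ring
      have h2 : ∑ j, ((((S i j : ℤ) - f (i, j)) / 2).toNat : ℤ) = (r' i : ℤ) := by omega
      exact_mod_cast h2
    · have h1 : 2 * ∑ i, ((((S i j : ℤ) - f (i, j)) / 2).toNat : ℤ) = 2 * (c' j : ℤ) := by
        rw [Finset.mul_sum, Finset.sum_congr rfl (fun i _ => hY i j), Finset.sum_sub_distrib,
          hSc, hcol]
        ring
      have h2 : ∑ i, ((((S i j : ℤ) - f (i, j)) / 2).toNat : ℤ) = (c' j : ℤ) := by omega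
      exact_mod_cast h2
  · rintro ⟨X, Y⟩ _
    simp only [Prod.mk.injEq]
    constructor <;> funext i j <;> push_cast <;> omega
  · rintro ⟨S, f⟩ hq
    have hq' : S ∈ tablesF (r + r') (c + c') ∧
        f ∈ flows ktail khead (unc S) (charge r r' c c') :=
      Finset.mem_sigma.1 (Finset.mem_coe.1 hq)
    have hf := mem_flows.1 hq'.2
    have hb : ∀ i j, -(S i j : ℤ) ≤ f (i, j) ∧ f (i, j) ≤ S i j := fun i j => hf.1 (i, j)
    have hpar : ∀ i j, (2 : ℤ) ∣ f (i, j) - S i j := fun i j => hf.2.1 (i, j)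
    have h1 : (fun i j => ((((S i j : ℤ) + f (i, j)) / 2).toNat) + (((S i j : ℤ) - f (i, j)) / 2).toNat) = S := by
      funext i j
      have h1 := hb i j
      have h2 := hpar i j
      omega
    have h2 : (fun e : ι × κ => (((((S e.1 e.2 : ℤ) + f (e.1, e.2)) / 2).toNat : ℕ) : ℤ) - ((((S e.1 e.2 : ℤ) - f (e.1, e.2)) / 2).toNat : ℕ)) = f := by
      funext ⟨i, j⟩
      have h1 := hb i j
      have h2 := hpar i j
      simp only
      omega
    simp only [h1, h2]

/-- Sums of a charge over a finite set of rows and columns. -/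
lemma sum_charge (r r' : ι → ℕ) (c c' : κ → ℕ) (U : Finset (ι ⊕ κ)) :
    ∑ v ∈ U, charge r r' c c' v =
      ∑ i ∈ U.toLeft, ((r i : ℤ) - r' i) - ∑ j ∈ U.toRight, ((c j : ℤ) - c' j) := by
  conv_lhs => rw [← Finset.toLeft_disjSum_toRight (u := U)]
  rw [Finset.sum_disjSum]
  simp only [charge, Sum.elim_inl, Sum.elim_inr, Finset.sum_neg_distrib]
  ring

/-- General comparison theorem for table counts. -/
theorem tableCount_mul_le (r₁ r₂ r₃ r₄ : ι → ℕ) (c₁ c₂ c₃ c₄ : κ → ℕ)
    (hr : r₁ + r₂ = r₃ + r₄) (hc : c₁ + c₂ = c₃ + c₄)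
    (hcut : ∀ (A : Finset ι) (B : Finset κ),
      |∑ i ∈ A, ((r₃ i : ℤ) - r₄ i) - ∑ j ∈ B, ((c₃ j : ℤ) - c₄ j)| ≤
        |∑ i ∈ A, ((r₁ i : ℤ) - r₂ i) - ∑ j ∈ B, ((c₁ j : ℤ) - c₂ j)|) :
    tableCount r₁ c₁ * tableCount r₂ c₂ ≤ tableCount r₃ c₃ * tableCount r₄ c₄ := by
  rw [tableCount_mul, tableCount_mul, ← hr, ← hc]
  refine Finset.sum_le_sum fun S _ => ?_
  refine flowCount_le_of_cutDom ktail khead ⟨fun v => ?_, fun U => ?_⟩ (unc S)
  · rcases v with i | j
    · have := congrFun hr i
      simp only [Pi.add_apply] at this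
      simp only [charge, Sum.elim_inl]
      omega
    · have := congrFun hc j
      simp only [Pi.add_apply] at this
      simp only [charge, Sum.elim_inr]
      omega
  · rw [sum_charge, sum_charge]
    exact hcut _ _

/-- The rhombus inequality for contingency tables. -/
theorem tableCount_rhombus (r : ι → ℕ) (w : κ → ℕ) (a b c : κ) :
    tableCount r (w + Pi.single a 1 + Pi.single a 1) *
        tableCount r (w + Pi.single b 1 + Pi.single c 1) ≤
      tableCount r (w + Pi.single a 1 + Pi.single b 1) *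
        tableCount r (w + Pi.single a 1 + Pi.single c 1) := by
  refine tableCount_mul_le r r r r _ _ _ _ rfl ?_ ?_
  · funext j
    simp only [Pi.add_apply]
    ring
  · intro A B
    simp only [sub_self, Finset.sum_const_zero, zero_sub, abs_neg]
    have key : ∀ (d : κ), ∑ j ∈ B, (((Pi.single d 1 : κ → ℕ) j : ℕ) : ℤ) = if d ∈ B then 1 else 0 := by
      intro d
      have : ∀ j, (((Pi.single d 1 : κ → ℕ) j : ℕ) : ℤ) = if j = d then 1 else 0 := by
        intro j
        by_cases hj : j = d
        · subst hj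
          simp
        · simp [hj]
      simp only [this, Finset.sum_ite_eq']
    have h1 : ∑ j ∈ B, ((((w + Pi.single a 1 + Pi.single a 1 : κ → ℕ) j : ℕ) : ℤ) -
          (((w + Pi.single b 1 + Pi.single c 1 : κ → ℕ) j : ℕ) : ℤ)) =
        (if a ∈ B then 1 else 0) + (if a ∈ B then 1 else 0) -
          (if b ∈ B then 1 else 0) - (if c ∈ B then 1 else 0) := by
      rw [← key a, ← key b, ← key c, ← Finset.sum_add_distrib, ← Finset.sum_sub_distrib,
        ← Finset.sum_sub_distrib]
      refine Finset.sum_congr rfl fun j _ => ?_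
      simp only [Pi.add_apply]
      push_cast
      ring
    have h2 : ∑ j ∈ B, ((((w + Pi.single a 1 + Pi.single b 1 : κ → ℕ) j : ℕ) : ℤ) -
          (((w + Pi.single a 1 + Pi.single c 1 : κ → ℕ) j : ℕ) : ℤ)) =
        (if b ∈ B then 1 else 0) - (if c ∈ B then 1 else 0) := by
      rw [← key b, ← key c, ← Finset.sum_sub_distrib]
      refine Finset.sum_congr rfl fun j _ => ?_
      simp only [Pi.add_apply]
      push_cast
      ring
    rw [h1, h2]
    by_cases ha : a ∈ B <;> by_cases hb : b ∈ B <;> by_cases hc : c ∈ B <;> simp [ha, hb, hc]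

end Vale.Agent.P328

end
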